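import Mathlib

/-!
Unit-cost edit distance, and decision trees that read two length `n` strings only through
conjunctions of equalities between positions.
-/

namespace Vale.Agent.Lib.P315

/-- One unit-cost edit: insert, delete or substitute a single symbol. -/
inductive EditStep {σ : Type} : List σ → List σ → Prop
  | ins (u v : List σ) (a : σ) : EditStep (u ++ v) (u ++ a :: v)
  | del (u v : List σ) (a : σ) : EditStep (u ++ a :: v) (u ++ v)
  | sub (u v : List σ) (a b : σ) : EditStep (u ++ a :: v) (u ++ b :: v)

/-- `EditsIn k x y`: the list `y` is obtained from `x` by a sequence of exactly `k` edits. -/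
inductive EditsIn {σ : Type} : ℕ → List σ → List σ → Prop
  | refl (x : List σ) : EditsIn 0 x x
  | step {k : ℕ} {x y z : List σ} : EditStep x y → EditsIn k y z → EditsIn (k + 1) x z

/-- The edit distance: the least number of edits that transform `x` into `y`. -/
noncomputable def editDistance {σ : Type} (x y : List σ) : ℕ := sInf {k | EditsIn k x y}

/-- A decision tree on a pair of strings of length `n`. A position is `Sum.inl i` (the symbol
`x i`) or `Sum.inr j` (the symbol `y j`). An inner node asks at unit cost whether all the listed
pairs of positions carry equal symbols; this covers a comparison of two symbols and an equality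
test of two substrings of any length. A leaf outputs a number. -/
inductive CompTree (n : ℕ) : Type
  | leaf (out : ℕ) : CompTree n
  | node (test : List ((Fin n ⊕ Fin n) × (Fin n ⊕ Fin n))) (yes no : CompTree n) : CompTree n

/-- The output of a tree on the strings `x` and `y`. -/
def CompTree.run {n : ℕ} {σ : Type} [DecidableEq σ] (x y : Fin n → σ) : CompTree n → ℕ
  | .leaf out => out
  | .node test yes no =>
    if ∀ p ∈ test, Sum.elim x y p.1 = Sum.elim x y p.2 then CompTree.run x y yes
    else CompTree.run x y no

/-- The number of tests a tree makes on the strings `x` and `y`. -/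
def CompTree.cost {n : ℕ} {σ : Type} [DecidableEq σ] (x y : Fin n → σ) : CompTree n → ℕ
  | .leaf _ => 0
  | .node test yes no =>
    if ∀ p ∈ test, Sum.elim x y p.1 = Sum.elim x y p.2 then CompTree.cost x y yes + 1
    else CompTree.cost x y no + 1

/-- The string `0, 1, ..., n - 1` over the alphabet of size `2 * n`. -/
def lowString (n : ℕ) : Fin n → Fin (2 * n) := fun i => ⟨i.val, by omega⟩

/-- The string `n, n + 1, ..., 2 * n - 1` over the alphabet of size `2 * n`. -/
def highString (n : ℕ) : Fin n → Fin (2 * n) := fun j => ⟨n + j.val, by omega⟩

end Vale.Agent.Lib.P315
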