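import Vale.Agent.Lib.P315.Defs

namespace Vale.Agent.Lib.P315

section edits

variable {σ : Type}

lemma EditsIn.trans {a b : ℕ} {x y z : List σ} (h₁ : EditsIn a x y) (h₂ : EditsIn b y z) :
    EditsIn (a + b) x z := by
  induction h₁ with
  | refl x => simpa using h₂
  | @step k _ _ _ h _ ih =>
    have := EditsIn.step h (ih h₂)
    rwa [show k + 1 + b = k + b + 1 by omega]

lemma EditStep.append_right {x y : List σ} (t : List σ) (h : EditStep x y) :
    EditStep (x ++ t) (y ++ t) := by
  cases h with
  | ins u v a =>
    simpa [List.append_assoc] using EditStep.ins u (v ++ t) a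
  | del u v a =>
    simpa [List.append_assoc] using EditStep.del u (v ++ t) a
  | sub u v a b =>
    simpa [List.append_assoc] using EditStep.sub u (v ++ t) a b

lemma EditsIn.append_right {k : ℕ} {x y : List σ} (t : List σ) (h : EditsIn k x y) :
    EditsIn k (x ++ t) (y ++ t) := by
  induction h with
  | refl x => exact EditsIn.refl _
  | step h _ ih => exact EditsIn.step (h.append_right t) ih

/-- inserting a block in front -/
lemma editsIn_front (g l : List σ) : EditsIn g.length l (g ++ l) := by
  induction g with
  | nil => exact EditsIn.refl _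
  | cons a g ih =>
    have h1 : EditStep (g ++ l) (a :: g ++ l) := by
      simpa using EditStep.ins [] (g ++ l) a
    have h2 : EditsIn 1 (g ++ l) (a :: g ++ l) := by
      have := EditsIn.step h1 (EditsIn.refl _)
      simpa using this
    have := ih.trans h2
    simpa using this

/-- deleting a block at the end -/
lemma editsIn_back (p s : List σ) : EditsIn s.length (p ++ s) p := by
  induction s with
  | nil => simpa using EditsIn.refl p
  | cons a s ih =>
    have h1 : EditStep (p ++ a :: s) (p ++ s) := EditStep.del p s a
    have := EditsIn.step h1 ih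
    simpa [Nat.add_comm] using this

/-- the set defining the edit distance is never empty -/
lemma editsIn_exists (x y : List σ) : ∃ k, EditsIn k x y := by
  have h1 := editsIn_back [] x
  have h2 := editsIn_front y []
  simp only [List.nil_append, List.append_nil] at h1 h2
  exact ⟨_, h1.trans h2⟩

lemma editDistance_le {k : ℕ} {x y : List σ} (h : EditsIn k x y) : editDistance x y ≤ k :=
  Nat.sInf_le h

lemma editDistance_spec (x y : List σ) : EditsIn (editDistance x y) x y :=
  Nat.sInf_mem (editsIn_exists x y)

/-- substitutions only: two functions sampled on `range m` are at distance at most the number of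
mismatches -/
lemma editsIn_hamming [DecidableEq σ] (f g : ℕ → σ) (m : ℕ) :
    EditsIn ((Finset.range m).filter (fun i => f i ≠ g i)).card
      ((List.range m).map f) ((List.range m).map g) := by
  induction m with
  | zero => simpa using EditsIn.refl _
  | succ m ih =>
    rw [Finset.range_add_one, List.range_succ, List.map_append, List.map_append]
    simp only [List.map_cons, List.map_nil]
    have h1 := ih.append_right [f m]
    by_cases hm : f m = g m
    · have : (insert m (Finset.range m)).filter (fun i => f i ≠ g i)
          = (Finset.range m).filter (fun i => f i ≠ g i) := by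
        rw [Finset.filter_insert]
        simp [hm]
      rw [this, ← hm]
      exact h1
    · have : (insert m (Finset.range m)).filter (fun i => f i ≠ g i)
          = insert m ((Finset.range m).filter (fun i => f i ≠ g i)) := by
        rw [Finset.filter_insert]
        simp [hm]
      rw [this, Finset.card_insert_of_notMem (by simp)]
      have h2 : EditStep ((List.range m).map g ++ [f m]) ((List.range m).map g ++ [g m]) :=
        EditStep.sub _ [] (f m) (g m)
      exact h1.trans (EditsIn.step h2 (EditsIn.refl _))

/-- the number of list entries satisfying a test changes by at most one per edit -/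
lemma EditStep.countP_le (q : σ → Bool) {x y : List σ} (h : EditStep x y) :
    y.countP q ≤ x.countP q + 1 := by
  cases h with
  | ins u v a =>
    simp only [List.countP_append, List.countP_cons]
    split_ifs <;> omega
  | del u v a =>
    simp only [List.countP_append, List.countP_cons]
    split_ifs <;> omega
  | sub u v a b =>
    simp only [List.countP_append, List.countP_cons]
    split_ifs <;> omega

lemma EditsIn.countP_le (q : σ → Bool) {k : ℕ} {x y : List σ} (h : EditsIn k x y) :
    y.countP q ≤ x.countP q + k := by
  induction h with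
  | refl x => simp
  | step h _ ih =>
    have := h.countP_le q
    omega

end edits

section adversary

variable {n : ℕ}

/-- Adversary: along the run on an input where all symbols differ, each test either is passed by
every input or is refuted by one kept cell; so a set of at most `cost` cells decides the run. -/
lemma adversary {σ : Type} [DecidableEq σ] (x₀ y₀ : Fin n → σ)
    (h₀ : Function.Injective (Sum.elim x₀ y₀)) (T : CompTree n) :
    ∃ B : Finset (Fin n × Fin n), B.card ≤ T.cost x₀ y₀ ∧
      ∀ x y : Fin n → σ, Function.Injective x → Function.Injective y →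
        (∀ c ∈ B, x c.1 ≠ y c.2) → T.run x y = T.run x₀ y₀ := by
  induction T with
  | leaf out =>
    exact ⟨∅, by simp, fun _ _ _ _ _ => rfl⟩
  | node test yes no ihy ihn =>
    by_cases hrefl : ∀ p ∈ test, p.1 = p.2
    · obtain ⟨B, hB, hy⟩ := ihy
      have htrue : ∀ x y : Fin n → σ, ∀ p ∈ test, Sum.elim x y p.1 = Sum.elim x y p.2 := by
        intro x y p hp; rw [hrefl p hp]
      refine ⟨B, ?_, ?_⟩
      · rw [CompTree.cost, if_pos (htrue x₀ y₀)]; omega
      · intro x y hx hy' hBB
        rw [CompTree.run, CompTree.run, if_pos (htrue x y), if_pos (htrue x₀ y₀)]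
        exact hy x y hx hy' hBB
    · push Not at hrefl
      obtain ⟨p, hp, hne⟩ := hrefl
      obtain ⟨Bn, hBn, hn⟩ := ihn
      have hfalse₀ : ¬ ∀ q ∈ test, Sum.elim x₀ y₀ q.1 = Sum.elim x₀ y₀ q.2 :=
        fun h => hne (h₀ (h p hp))
      -- the cell that the adversary keeps unequal
      let C : Finset (Fin n × Fin n) :=
        match p with
        | (Sum.inl i, Sum.inr j) => {(i, j)}
        | (Sum.inr j, Sum.inl i) => {(i, j)}
        | _ => ∅
      have hC : C.card ≤ 1 := by
        rcases p with ⟨a | a, b | b⟩ <;> simp [C]
      refine ⟨C ∪ Bn, ?_, ?_⟩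
      · have := Finset.card_union_le C Bn
        rw [CompTree.cost, if_neg hfalse₀]; omega
      · intro x y hx hy' hB
        have hBn' : ∀ c ∈ Bn, x c.1 ≠ y c.2 := fun c hc =>
          hB c (Finset.mem_union_right _ hc)
        have hCC : ∀ c ∈ C, x c.1 ≠ y c.2 := fun c hc =>
          hB c (Finset.mem_union_left _ hc)
        have hpne : Sum.elim x y p.1 ≠ Sum.elim x y p.2 := by
          rcases p with ⟨a | a, b | b⟩
          · intro h
            apply hne
            simp only [Sum.elim_inl] at h
            simp [hx h]
          · simpa [C] using hCC (a, b) (by simp [C])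
          · have := hCC (b, a) (by simp [C])
            simpa [C, eq_comm] using this
          · intro h
            apply hne
            simp only [Sum.elim_inr] at h
            simp [hy' h]
        have hnot : ¬ ∀ q ∈ test, Sum.elim x y q.1 = Sum.elim x y q.2 :=
          fun h => hpne (h p hp)
        rw [CompTree.run, CompTree.run, if_neg hnot, if_neg hfalse₀]
        exact hn x y hx hy' hBn'

end adversary

section main

variable {n : ℕ}

/-- Embedding of numbers below `2 * n` into the alphabet. -/
def sym (hn : 0 < n) (k : ℕ) : Fin (2 * n) := ⟨k % (2 * n), Nat.mod_lt _ (by omega)⟩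

lemma sym_inj (hn : 0 < n) {a b : ℕ} (ha : a < 2 * n) (hb : b < 2 * n)
    (h : sym hn a = sym hn b) : a = b := by
  have := congrArg Fin.val h
  simpa [sym, Nat.mod_eq_of_lt ha, Nat.mod_eq_of_lt hb] using this

/-- The list of a function on `Fin n` that comes from a function on numbers. -/
lemma ofFn_eq_map_range {τ : Type} (f : ℕ → τ) :
    List.ofFn (fun i : Fin n => f i) = (List.range n).map f := by
  apply List.ext_getElem
  · simp
  · intro i h1 h2
    simp

/-- The string with all symbols below `n`. -/
def xFun (hn : 0 < n) : ℕ → Fin (2 * n) := fun i => sym hn i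

/-- The string planted along the diagonal `d`, with the cells of `B` kept unequal. -/
def yFun (hn : 0 < n) (d : ℕ) (B : Finset (Fin n × Fin n)) : ℕ → Fin (2 * n) := fun j =>
  if d ≤ j ∧ ∀ c ∈ B, ¬ (c.1.val = j - d ∧ c.2.val = j) then sym hn (j - d) else sym hn (n + j)

lemma xFun_injective (hn : 0 < n) :
    Function.Injective (fun i : Fin n => xFun hn i) := by
  intro a b h
  apply Fin.ext
  exact sym_inj hn (by omega) (by omega) h

lemma yFun_injective (hn : 0 < n) (d : ℕ) (B : Finset (Fin n × Fin n)) :
    Function.Injective (fun j : Fin n => yFun hn d B j) := by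
  intro a b h
  apply Fin.ext
  have ha := a.isLt
  have hb := b.isLt
  simp only [yFun] at h
  split_ifs at h with h1 h2 h2
  · have := sym_inj hn (by omega) (by omega) h
    omega
  · have := sym_inj hn (by omega) (by omega) h
    omega
  · have := sym_inj hn (by omega) (by omega) h
    omega
  · have := sym_inj hn (by omega) (by omega) h
    omega

lemma x_ne_y_of_mem (hn : 0 < n) (d : ℕ) (B : Finset (Fin n × Fin n)) {c : Fin n × Fin n}
    (hc : c ∈ B) : xFun hn c.1 ≠ yFun hn d B c.2 := by
  have h1 := c.1.isLt
  have h2 := c.2.isLt
  intro h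
  simp only [xFun, yFun] at h
  split_ifs at h with h3
  · have := sym_inj hn (by omega) (by omega) h
    exact h3.2 c hc ⟨this, rfl⟩
  · have := sym_inj hn (by omega) (by omega) h
    omega

/-- The distance between the planted strings is at most `2 d` plus the number of kept cells
on the diagonal `d`. -/
lemma editDistance_planted (hn : 0 < n) (d : ℕ) (hd : d ≤ n) (B : Finset (Fin n × Fin n)) :
    editDistance (List.ofFn (fun i : Fin n => xFun hn i))
      (List.ofFn (fun j : Fin n => yFun hn d B j))
      ≤ 2 * d + (B.filter (fun c => c.2.val = c.1.val + d)).card := by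
  rw [ofFn_eq_map_range (xFun hn), ofFn_eq_map_range (yFun hn d B)]
  obtain ⟨m, rfl⟩ : ∃ m, n = m + d := ⟨n - d, by omega⟩
  -- x = p ++ s
  have hx : (List.range (m + d)).map (xFun hn)
      = (List.range m).map (xFun hn) ++ ((List.range d).map (fun i => m + i)).map (xFun hn) := by
    rw [List.range_add]; simp
  -- y = g ++ p'
  have hy : (List.range (m + d)).map (yFun hn d B)
      = (List.range d).map (yFun hn d B)
        ++ (List.range m).map (fun i => yFun hn d B (d + i)) := by
    have hr : List.range (m + d) = List.range d ++ (List.range m).map (fun i => d + i) := by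
      rw [Nat.add_comm m d, List.range_add]
    rw [hr]
    simp [Function.comp_def]
  rw [hx, hy]
  have e1 := editsIn_back ((List.range m).map (xFun hn))
    (((List.range d).map (fun i => m + i)).map (xFun hn))
  have e2 := editsIn_hamming (xFun hn) (fun i => yFun hn d B (d + i)) m
  have e3 := editsIn_front ((List.range d).map (yFun hn d B))
    ((List.range m).map (fun i => yFun hn d B (d + i)))
  have e := (e1.trans e2).trans e3
  refine (editDistance_le e).trans ?_
  simp only [List.length_map, List.length_range]
  -- count mismatches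
  have hcount : ((Finset.range m).filter
      (fun i => xFun hn i ≠ yFun hn d B (d + i))).card
      ≤ (B.filter (fun c => c.2.val = c.1.val + d)).card := by
    classical
    -- each mismatch `i` comes from a kept cell with first coordinate `i`
    have hsub : ((Finset.range m).filter (fun i => xFun hn i ≠ yFun hn d B (d + i)))
        ⊆ (B.filter (fun c => c.2.val = c.1.val + d)).image (fun c => c.1.val) := by
      intro i hi
      simp only [Finset.mem_filter, Finset.mem_range] at hi
      obtain ⟨him, hne⟩ := hi
      simp only [xFun, yFun] at hne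
      by_cases hall : ∀ c ∈ B, ¬ (c.1.val = d + i - d ∧ c.2.val = d + i)
      · exfalso
        apply hne
        rw [if_pos ⟨by omega, hall⟩]
        congr 1
        omega
      · push Not at hall
        obtain ⟨c, hc, h1, h2⟩ := hall
        refine Finset.mem_image.2 ⟨c, ?_, by omega⟩
        simp only [Finset.mem_filter]
        exact ⟨hc, by omega⟩
    exact (Finset.card_le_card hsub).trans Finset.card_image_le
  omega

/-- The all-different pair has distance at least `n`. -/
lemma editDistance_distinct (hn : 0 < n) :
    n ≤ editDistance (List.ofFn (fun i : Fin n => xFun hn i))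
      (List.ofFn (fun j : Fin n => sym hn (n + j.val))) := by
  have h := (editDistance_spec (List.ofFn (fun i : Fin n => xFun hn i))
      (List.ofFn (fun j : Fin n => sym hn (n + j.val)))).countP_le
      (fun s : Fin (2 * n) => decide (n ≤ s.val))
  have hy : (List.ofFn (fun j : Fin n => sym hn (n + j.val))).countP
      (fun s : Fin (2 * n) => decide (n ≤ s.val)) = n := by
    rw [List.countP_eq_length.2]
    · simp
    · intro a ha
      rw [List.mem_ofFn] at ha
      obtain ⟨j, rfl⟩ := ha
      have hj := j.isLt
      simp [sym, Nat.mod_eq_of_lt (show n + j.val < 2 * n by omega)]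
  have hx : (List.ofFn (fun i : Fin n => xFun hn i)).countP
      (fun s : Fin (2 * n) => decide (n ≤ s.val)) = 0 := by
    rw [List.countP_eq_zero]
    intro a ha
    rw [List.mem_ofFn] at ha
    obtain ⟨i, rfl⟩ := ha
    have hi := i.isLt
    simp [xFun, sym, Nat.mod_eq_of_lt (show i.val < 2 * n by omega)]
  omega

/-- The diagonal fibres of a set of cells have total size at most the size of the set. -/
lemma sum_diagonals_le (B : Finset (Fin n × Fin n)) (D : ℕ) :
    ∑ d ∈ Finset.range D, (B.filter (fun c => c.2.val = c.1.val + d)).card ≤ B.card := by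
  classical
  rw [← Finset.card_biUnion]
  · apply Finset.card_le_card
    intro c hc
    simp only [Finset.mem_biUnion, Finset.mem_filter] at hc
    obtain ⟨_, _, h, _⟩ := hc
    exact h
  · intro a _ b _ hab
    simp only [Function.onFun]
    rw [Finset.disjoint_left]
    intro c hc hc'
    simp only [Finset.mem_filter] at hc hc'
    omega

end main

section final

variable {n : ℕ}

/-- The concrete all-different pair agrees with the functions used in the construction. -/
lemma lowString_eq (hn : 0 < n) : lowString n = fun i : Fin n => xFun hn i := by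
  funext i
  apply Fin.ext
  have h1 : i.val < 2 * n := by have := i.isLt; omega
  simp [lowString, xFun, sym, Nat.mod_eq_of_lt h1]

lemma highString_eq (hn : 0 < n) : highString n = fun j : Fin n => sym hn (n + j.val) := by
  funext j
  apply Fin.ext
  have h1 : n + j.val < 2 * n := by have := j.isLt; omega
  simp [highString, sym, Nat.mod_eq_of_lt h1]

/-- Main theorem: a comparison tree that `α`-approximates the edit distance on all pairs of
strings of length `n` over an alphabet of size `2 n` makes at least `n ^ 2 / (4 α ^ 2)` tests on
the pair of strings `0, ..., n - 1` and `n, ..., 2 n - 1`. -/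
theorem comparison_lower_bound (n : ℕ) (α : ℝ) (hα : 1 ≤ α) (T : CompTree n)
    (hT : ∀ x y : Fin n → Fin (2 * n),
      (editDistance (List.ofFn x) (List.ofFn y) : ℝ) ≤ T.run x y ∧
      (T.run x y : ℝ) ≤ α * editDistance (List.ofFn x) (List.ofFn y)) :
    (n : ℝ) ^ 2 ≤ 4 * α ^ 2 * T.cost (lowString n) (highString n) := by
  have hα0 : 0 < α := by linarith
  rcases Nat.eq_zero_or_pos n with rfl | hn
  · have : (0 : ℝ) ≤ 4 * α ^ 2 * T.cost (lowString 0) (highString 0) := by positivity
    simpa using this
  have hx := xFun_injective hn
  have hy0 : Function.Injective (fun j : Fin n => sym hn (n + j.val)) := by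
    intro a b h
    apply Fin.ext
    have ha := a.isLt
    have hb := b.isLt
    have := sym_inj hn (by omega) (by omega) h
    omega
  have hjoint : Function.Injective (Sum.elim (lowString n) (highString n)) := by
    rw [lowString_eq hn, highString_eq hn]
    rintro (a | a) (b | b) h
    · simp only [Sum.elim_inl] at h
      exact congrArg _ (hx h)
    · simp only [Sum.elim_inl, Sum.elim_inr, xFun] at h
      have h1 := a.isLt
      have h2 := b.isLt
      have := sym_inj hn (by omega) (by omega) h
      omega
    · simp only [Sum.elim_inl, Sum.elim_inr, xFun] at h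
      have h1 := a.isLt
      have h2 := b.isLt
      have := sym_inj hn (by omega) (by omega) h
      omega
    · simp only [Sum.elim_inr] at h
      exact congrArg _ (hy0 h)
  obtain ⟨B, hB, hout⟩ := adversary (lowString n) (highString n) hjoint T
  set out := T.run (lowString n) (highString n) with hout_def
  have hout_ge : (n : ℝ) ≤ out := by
    have h1 := (hT (lowString n) (highString n)).1
    have h2 : (n : ℝ) ≤ (editDistance (List.ofFn (lowString n))
      (List.ofFn (highString n)) : ℝ) := by
      rw [lowString_eq hn, highString_eq hn]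
      exact_mod_cast editDistance_distinct hn
    linarith
  -- the planted inputs
  have hplant : ∀ d, d ≤ n →
      (n : ℝ) ≤ α * ((2 * d + (B.filter (fun c => c.2.val = c.1.val + d)).card : ℕ) : ℝ) := by
    intro d hd
    have h1 : T.run (fun i : Fin n => xFun hn i) (fun j : Fin n => yFun hn d B j) = out :=
      hout _ _ hx (yFun_injective hn d B) (fun c hc => x_ne_y_of_mem hn d B hc)
    have h2 := (hT (fun i : Fin n => xFun hn i) (fun j : Fin n => yFun hn d B j)).2
    rw [h1] at h2
    have h3 := editDistance_planted hn d hd B
    have h4 : (editDistance (List.ofFn (fun i : Fin n => xFun hn i))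
        (List.ofFn (fun j : Fin n => yFun hn d B j)) : ℝ)
        ≤ ((2 * d + (B.filter (fun c => c.2.val = c.1.val + d)).card : ℕ) : ℝ) := by
      exact_mod_cast h3
    calc (n : ℝ) ≤ out := hout_ge
      _ ≤ _ := h2
      _ ≤ _ := mul_le_mul_of_nonneg_left h4 hα0.le
  -- sum over the diagonals
  set q : ℕ := T.cost (lowString n) (highString n) with hq_def
  set t : ℝ := (n : ℝ) / (2 * α) with ht
  have hnpos : (0 : ℝ) < n := by exact_mod_cast hn
  have htpos : 0 < t := by positivity
  set D : ℕ := ⌈t⌉₊ with hD
  have hDge : t ≤ D := Nat.le_ceil t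
  have hDlt : (D : ℝ) < t + 1 := Nat.ceil_lt_add_one htpos.le
  have hnt : (n : ℝ) = 2 * α * t := by rw [ht]; field_simp
  have htn : t ≤ (n : ℝ) / 2 := by
    rw [ht]
    apply div_le_div_of_nonneg_left hnpos.le (by norm_num) (by linarith)
  have hDn : D ≤ n := by
    have h1 : (D : ℝ) < n + 1 := by
      have : (1 : ℝ) ≤ n := by exact_mod_cast hn
      linarith
    have : D < n + 1 := by exact_mod_cast h1
    omega
  have hDpos0 : 0 < D := by
    have : (0 : ℝ) < D := lt_of_lt_of_le htpos hDge
    exact_mod_cast this
  have hsum : (D : ℝ) * n ≤ α * ((D : ℝ) * (D - 1) + q) := by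
    have h1 : ∑ _d ∈ Finset.range D, (n : ℝ) ≤ ∑ d ∈ Finset.range D,
        α * ((2 * d + (B.filter (fun c => c.2.val = c.1.val + d)).card : ℕ) : ℝ) := by
      apply Finset.sum_le_sum
      intro d hd
      exact hplant d (by have := Finset.mem_range.1 hd; omega)
    rw [Finset.sum_const, Finset.card_range, nsmul_eq_mul, ← Finset.mul_sum] at h1
    refine h1.trans (mul_le_mul_of_nonneg_left ?_ hα0.le)
    have h2 : ∑ d ∈ Finset.range D, (2 * d + (B.filter (fun c => c.2.val = c.1.val + d)).card)
        = 2 * ∑ d ∈ Finset.range D, d
          + ∑ d ∈ Finset.range D, (B.filter (fun c => c.2.val = c.1.val + d)).card := by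
      rw [Finset.sum_add_distrib, Finset.mul_sum]
    have h3 := sum_diagonals_le B D
    have h4 : 2 * ∑ d ∈ Finset.range D, d = D * (D - 1) := by
      rw [Finset.sum_range_id_mul_two D |>.symm, mul_comm]
    rw [← Nat.cast_sum, h2, h4]
    have h6 : ((∑ d ∈ Finset.range D, (B.filter (fun c => c.2.val = c.1.val + d)).card : ℕ) : ℝ)
        ≤ q := by
      exact_mod_cast h3.trans hB
    have h7 : ((D - 1 : ℕ) : ℝ) = (D : ℝ) - 1 := by
      rw [Nat.cast_sub hDpos0]; simp
    rw [Nat.cast_add, Nat.cast_mul, h7]
    linarith
  -- arithmetic
  have hq : t ^ 2 ≤ q := by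
    have h1 : (D : ℝ) * (2 * t) ≤ (D : ℝ) * (D - 1) + q := by
      have h2 : α * ((D : ℝ) * (2 * t)) ≤ α * ((D : ℝ) * (D - 1) + q) := by
        calc α * ((D : ℝ) * (2 * t)) = (D : ℝ) * n := by rw [hnt]; ring
          _ ≤ _ := hsum
      exact le_of_mul_le_mul_left h2 hα0
    have hDpos : (0 : ℝ) < D := lt_of_lt_of_le htpos hDge
    have h3 : (D : ℝ) * t ≤ q := by nlinarith
    have h4 : t * t ≤ (D : ℝ) * t := mul_le_mul_of_nonneg_right hDge htpos.le
    nlinarith
  have : (n : ℝ) ^ 2 = 4 * α ^ 2 * t ^ 2 := by rw [hnt]; ring
  rw [this]
  exact mul_le_mul_of_nonneg_left hq (by positivity)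

/-! ### A tree computing the distance exactly -/

section exact

variable {σ : Type}

lemma EditStep.map (f : σ → σ) {x y : List σ} (h : EditStep x y) :
    EditStep (x.map f) (y.map f) := by
  cases h with
  | ins u v a => simpa using EditStep.ins (u.map f) (v.map f) (f a)
  | del u v a => simpa using EditStep.del (u.map f) (v.map f) (f a)
  | sub u v a b => simpa using EditStep.sub (u.map f) (v.map f) (f a) (f b)

lemma EditsIn.map (f : σ → σ) {k : ℕ} {x y : List σ} (h : EditsIn k x y) :
    EditsIn k (x.map f) (y.map f) := by
  induction h with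
  | refl x => exact EditsIn.refl _
  | step h _ ih => exact EditsIn.step (h.map f) ih

lemma editDistance_map_le (f : σ → σ) (x y : List σ) :
    editDistance (x.map f) (y.map f) ≤ editDistance x y :=
  editDistance_le ((editDistance_spec x y).map f)

end exact

/-- The tree that asks all the given single comparisons, remembering those answered yes. -/
noncomputable def fullTree (n : ℕ) (g : Finset ((Fin n ⊕ Fin n) × (Fin n ⊕ Fin n)) → ℕ) :
    List ((Fin n ⊕ Fin n) × (Fin n ⊕ Fin n)) →
      Finset ((Fin n ⊕ Fin n) × (Fin n ⊕ Fin n)) → CompTree n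
  | [], S => .leaf (g S)
  | p :: L, S => .node [p] (fullTree n g L (insert p S)) (fullTree n g L S)

lemma fullTree_cost {σ : Type} [DecidableEq σ] (x y : Fin n → σ)
    (g : Finset ((Fin n ⊕ Fin n) × (Fin n ⊕ Fin n)) → ℕ)
    (L : List ((Fin n ⊕ Fin n) × (Fin n ⊕ Fin n)))
    (S : Finset ((Fin n ⊕ Fin n) × (Fin n ⊕ Fin n))) :
    (fullTree n g L S).cost x y = L.length := by
  induction L generalizing S with
  | nil => simp [fullTree, CompTree.cost]
  | cons p L ih =>
    simp only [fullTree, CompTree.cost, ih, List.length_cons]
    split_ifs <;> rfl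

lemma fullTree_run {σ : Type} [DecidableEq σ] (x y : Fin n → σ)
    (g : Finset ((Fin n ⊕ Fin n) × (Fin n ⊕ Fin n)) → ℕ)
    (L : List ((Fin n ⊕ Fin n) × (Fin n ⊕ Fin n)))
    (S : Finset ((Fin n ⊕ Fin n) × (Fin n ⊕ Fin n))) :
    (fullTree n g L S).run x y
      = g (S ∪ (L.toFinset.filter (fun p => Sum.elim x y p.1 = Sum.elim x y p.2))) := by
  induction L generalizing S with
  | nil => simp [fullTree, CompTree.run]
  | cons p L ih =>
    simp only [fullTree, CompTree.run, List.mem_singleton, forall_eq, ih]
    by_cases h : Sum.elim x y p.1 = Sum.elim x y p.2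
    · rw [if_pos h]
      congr 1
      ext q
      simp only [Finset.mem_union, Finset.mem_insert, Finset.mem_filter, List.mem_toFinset,
        List.mem_cons]
      constructor
      · rintro ((rfl | hq) | ⟨hq, hq'⟩)
        · exact Or.inr ⟨Or.inl rfl, h⟩
        · exact Or.inl hq
        · exact Or.inr ⟨Or.inr hq, hq'⟩
      · rintro (hq | ⟨rfl | hq, hq'⟩)
        · exact Or.inl (Or.inr hq)
        · exact Or.inl (Or.inl rfl)
        · exact Or.inr ⟨hq, hq'⟩
    · rw [if_neg h]
      congr 1
      ext q
      simp only [Finset.mem_union, Finset.mem_filter, List.mem_toFinset, List.mem_cons]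
      constructor
      · rintro (hq | ⟨hq, hq'⟩)
        · exact Or.inl hq
        · exact Or.inr ⟨Or.inr hq, hq'⟩
      · rintro (hq | ⟨rfl | hq, hq'⟩)
        · exact Or.inl hq
        · exact absurd hq' h
        · exact Or.inr ⟨hq, hq'⟩

/-- Two pairs of strings with the same pattern of equalities have the same distance. -/
lemma editDistance_eq_of_pattern {σ : Type} (x y x' y' : Fin n → σ)
    (h : ∀ a b, Sum.elim x y a = Sum.elim x y b ↔ Sum.elim x' y' a = Sum.elim x' y' b) :
    editDistance (List.ofFn x) (List.ofFn y) = editDistance (List.ofFn x') (List.ofFn y') := by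
  classical
  -- a relabelling in one direction, for any pair with the same pattern
  have key : ∀ (x y x' y' : Fin n → σ),
      (∀ a b, Sum.elim x y a = Sum.elim x y b → Sum.elim x' y' a = Sum.elim x' y' b) →
      editDistance (List.ofFn x') (List.ofFn y') ≤ editDistance (List.ofFn x) (List.ofFn y) := by
    intro x y x' y' h
    let f : σ → σ := fun s =>
      if hs : ∃ a, Sum.elim x y a = s then Sum.elim x' y' hs.choose else s
    have hf : ∀ a, f (Sum.elim x y a) = Sum.elim x' y' a := by
      intro a
      have hs : ∃ b, Sum.elim x y b = Sum.elim x y a := ⟨a, rfl⟩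
      simp only [f, dif_pos hs]
      exact h _ _ hs.choose_spec
    have hx : (List.ofFn x).map f = List.ofFn x' := by
      rw [List.map_ofFn]
      congr 1
      funext i
      exact hf (Sum.inl i)
    have hy : (List.ofFn y).map f = List.ofFn y' := by
      rw [List.map_ofFn]
      congr 1
      funext i
      exact hf (Sum.inr i)
    rw [← hx, ← hy]
    exact editDistance_map_le f _ _
  exact le_antisymm (key x' y' x y (fun a b => (h a b).2)) (key x y x' y' (fun a b => (h a b).1))

/-- There is a tree that computes the distance exactly with `(2 * n) ^ 2` tests. -/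
theorem exists_exact_tree (n : ℕ) :
    ∃ T : CompTree n, ∀ x y : Fin n → Fin (2 * n),
      T.run x y = editDistance (List.ofFn x) (List.ofFn y) ∧ T.cost x y = (2 * n) ^ 2 := by
  classical
  -- the pattern of a pair of strings
  let pat : (Fin n → Fin (2 * n)) → (Fin n → Fin (2 * n)) →
      Finset ((Fin n ⊕ Fin n) × (Fin n ⊕ Fin n)) := fun x y =>
    (Finset.univ : Finset ((Fin n ⊕ Fin n) × (Fin n ⊕ Fin n))).filter
      (fun p => Sum.elim x y p.1 = Sum.elim x y p.2)
  let g : Finset ((Fin n ⊕ Fin n) × (Fin n ⊕ Fin n)) → ℕ := fun E =>
    if hE : ∃ xy : (Fin n → Fin (2 * n)) × (Fin n → Fin (2 * n)), pat xy.1 xy.2 = E then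
      editDistance (List.ofFn hE.choose.1) (List.ofFn hE.choose.2)
    else 0
  let L := (Finset.univ : Finset ((Fin n ⊕ Fin n) × (Fin n ⊕ Fin n))).toList
  refine ⟨fullTree n g L ∅, fun x y => ⟨?_, ?_⟩⟩
  · rw [fullTree_run]
    have hL : L.toFinset = Finset.univ := by simp [L]
    rw [hL, Finset.empty_union]
    have hE : ∃ xy : (Fin n → Fin (2 * n)) × (Fin n → Fin (2 * n)), pat xy.1 xy.2
        = (Finset.univ : Finset ((Fin n ⊕ Fin n) × (Fin n ⊕ Fin n))).filter
          (fun p => Sum.elim x y p.1 = Sum.elim x y p.2) := ⟨(x, y), rfl⟩
    simp only [g]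
    rw [dif_pos hE]
    apply editDistance_eq_of_pattern
    intro a b
    have hs := hE.choose_spec
    have : (a, b) ∈ pat hE.choose.1 hE.choose.2 ↔ (a, b) ∈
        (Finset.univ : Finset ((Fin n ⊕ Fin n) × (Fin n ⊕ Fin n))).filter
          (fun p => Sum.elim x y p.1 = Sum.elim x y p.2) := by rw [hs]
    simpa [pat] using this
  · rw [fullTree_cost]
    simp [L, Finset.length_toList, Fintype.card_sum, Fintype.card_prod]
    ring

end final

end Vale.Agent.Lib.P315
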